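import Vale.Agent.Torus.Main
import Vale.Agent.Torus.Fin

/-!
The higher-dimensional Duke problem: for every composite degree `n` the packet measures of
maximal orders of suitable totally real fields of degree `n` fail to equidistribute, together
with a general necessary condition for equidistribution, and the fact that all packet measures
are probability measures.
-/

namespace Vale.Agent.Results.P007.CompositeDukeProb

open MeasureTheory Filter Topology Vale.Agent.Torus

/-- (0) Every packet measure `μ_{O,σ}` is a probability measure.

(1) For every composite `n ≥ 4` there is a sequence of totally real fields of degree `n` with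
orderings of their real embeddings and with their maximal orders, of discriminant tending to
infinity, and a fixed nonempty open subset `U` of `X_n` of zero mass for all their packet measures,
while every `SL_n(ℝ)`-invariant probability measure `ν` on `X_n` gives `U` positive mass; hence
neither the sequence nor any subsequence of it converges to `ν`.

(2) For every `n` and every sequence of data whose packet measures converge to an invariant
probability measure, for each `C` all but finitely many of the orders contain no nonrational
element all of whose conjugates have absolute value at most `C`. -/
theorem result :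
    (∀ (n : ℕ) (d : Datum n), IsProbabilityMeasure d.packetMeasure) ∧
    (∀ n : ℕ, 4 ≤ n → ¬ n.Prime →
      ∃ d : ℕ → Datum n, (∀ i, IsMaximal (d i).O) ∧
        Tendsto (fun i ↦ absDisc (d i).O) atTop atTop ∧
        ∃ U : Set (X n), IsOpen U ∧ U.Nonempty ∧ (∀ i, (d i).packetMeasure U = 0) ∧
          ∀ ν : Measure (X n), IsInvariantProbability ν →
            0 < ν U ∧ ∀ φ : ℕ → ℕ, StrictMono φ →
              ¬ ConvergesTo (fun i ↦ (d (φ i)).packetMeasure) ν) ∧
    (∀ (n : ℕ) (d : ℕ → Datum n) (ν : Measure (X n)), IsInvariantProbability ν →
      ConvergesTo (fun i ↦ (d i).packetMeasure) ν →
      ∀ C : ℝ, ∀ᶠ i in atTop, SmallRational (d i).σ (d i).O C) :=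
  ⟨fun _ d ↦ isProbabilityMeasure_packetMeasure d, composite_disproof,
    fun _ d ν hν h C ↦ bounded_necessary d ν hν h C⟩

end Vale.Agent.Results.P007.CompositeDukeProb
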